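import Crest.Agent.R18.LOC.Wild

/-! Row 18 block LOC: inertia moves the roots of a uniformiser. -/

set_option autoImplicit false
set_option linter.unusedSectionVars false
open scoped Pointwise NumberField
open IsDedekindDomain Crest.NumberTheoryR

namespace Crest.Agent.R18.LOC

variable {F E : Type*} [Field F] [NumberField F] [Field E] [Algebra F E] [IsGalois F E]

variable {A : ValuationSubring E} {g h : E ≃ₐ[F] E} {p : ℕ}

theorem val_eq_one_of_sub {a b : E} (hb : A.valuation b = 1) (h : A.valuation (a - b) < 1) :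
    A.valuation a = 1 := by
  rw [← hb] at h ⊢
  exact Valuation.map_eq_of_sub_lt _ h

theorem int_map {x : E} (hx : IsIntegral ℤ x) (g : E ≃ₐ[F] E) : IsIntegral ℤ (g x) :=
  hx.map (g : E →+* E).toIntAlgHom

theorem sep (V : Subgroup (E ≃ₐ[F] E)) (hV : IsOpen (V : Set (E ≃ₐ[F] E))) (hA : Over A p)
    (hg : ∀ x, Fix V x → IsIntegral ℤ x → A.valuation (g x - x) < 1) :
    ∃ w ∈ V, ∃ u ∈ V, Inert A (w⁻¹ * (g * u)) := by
  have hB : ∀ x, x ∈ g⁻¹ • A ↔ g x ∈ A := fun x => by simpa using mem_smul_val g⁻¹ A (g x)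
  have hle : ∀ {x s a : E}, A.valuation s = 1 → IsIntegral ℤ a → x * s = a → x ∈ A := by
    intro x s a hs ha h
    have := (A.valuation_le_one_iff a).2 (mem_of_isIntegral A ha)
    rwa [← h, map_mul, hs, mul_one, A.valuation_le_one_iff] at this
  have hag : Agree V A (g⁻¹ • A) := fun x hx => by
    constructor
    · intro h
      obtain ⟨a, s, ha, hs, -, hfs, h1, h2⟩ := exists_frac V hV hA h hx
      exact (hB x).2 (hle (val_eq_one_of_sub h1 (hg s hfs hs)) (int_map ha g)
        (by rw [← map_mul, h2]))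
    · intro h
      obtain ⟨a, s, ha, hs, -, hfs, h1, h2⟩ := exists_frac V hV (hA.smul g⁻¹) h hx
      have h3 : A.valuation (g s) = 1 := (val_smul_eq_one g⁻¹ A (g s)).1 (by simpa using h1)
      exact hle (val_eq_one_of_sub h3 (by rw [Valuation.map_sub_swap]; exact hg s hfs hs)) ha h2
  obtain ⟨u, hu, huA⟩ := conj_of_agree V hV hA hag
  have hs : Stab A (g * u) := stab_iff.2 (by rw [mul_smul, huA, smul_inv_smul])
  obtain ⟨w, hw, hI⟩ := lift_inert hV hA hs fun x hx hf => by
    obtain ⟨a, s, ha, hs, hfa, hfs, h1, h2⟩ := exists_frac V hV hA hx hf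
    have h3 := val_eq_one_of_sub h1 (hg s hfs hs)
    have h4 : (g x - x) * (s * g s) = (g a - a) * s - a * (g s - s) := by
      rw [← h2, map_mul]
      ring
    have h5 : A.valuation ((g x - x) * (s * g s)) < 1 := by
      rw [h4]
      refine Valuation.map_sub_lt _ ?_ ?_
      · rw [map_mul, h1, mul_one]
        exact hg a hfa ha
      · rw [map_mul]
        exact mul_lt_one_of_nonneg_of_lt_one_right
          ((A.valuation_le_one_iff a).2 (mem_of_isIntegral A ha)) zero_le (hg s hfs hs)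
    rwa [map_mul, map_mul, h1, h3, mul_one, mul_one, ← hf u hu, ← AlgEquiv.mul_apply, hf u hu] at h5
  exact ⟨w, hw, u, hu, hI⟩

theorem exists_inert_move (U : Subgroup (E ≃ₐ[F] E)) (hU : IsOpen (U : Set (E ≃ₐ[F] E)))
    (hA : Over A p) {π : E} (hπ : Unif U A π) {ℓ : ℕ} (hℓ : 1 < ℓ) {z : E} (hz : z ^ ℓ = π) :
    ∃ τ ∈ U, Inert A τ ∧ τ z ≠ z := by
  classical
  by_contra! hfix
  have hz0 : z ≠ 0 := by
    rintro rfl
    exact hπ.ne (by rw [← hz, zero_pow (by omega)])
  set V : Subgroup (E ≃ₐ[F] E) := U ⊓ MulAction.stabilizer _ z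
  have hV : IsOpen (V : Set (E ≃ₐ[F] E)) := hU.inter (stabilizer_isOpen_of_isIntegral z)
  have := finiteIndex_of_open V hV
  have := Fintype.ofFinite (U ⧸ V.subgroupOf U)
  have hcos : ∀ {y : E}, Fix V y → ∀ g g' : U, (g : U ⧸ V.subgroupOf U) = g' → g.1 y = g'.1 y := by
    intro y hy g g' h
    have h1 := hy _ (Subgroup.mem_subgroupOf.1 (QuotientGroup.eq.1 h))
    rw [Subgroup.coe_mul, AlgEquiv.mul_apply] at h1
    simpa using (congrArg g.1 h1).symm
  let O : Submonoid E :=
    { carrier := {x | Fix V x ∧ IsIntegral ℤ x}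
      one_mem' := ⟨fun w _ => map_one w, isIntegral_one⟩
      mul_mem' := fun ha hb => ⟨fun w hw => by rw [map_mul, ha.1 w hw, hb.1 w hw], ha.2.mul hb.2⟩ }
  let φ : U → (O →* IsLocalRing.ResidueField A) := fun g =>
    { toFun := fun x => IsLocalRing.residue A ⟨g.1 x, mem_of_isIntegral A (int_map x.2.2 g.1)⟩
      map_one' := by
        rw [← map_one (IsLocalRing.residue A)]
        exact congrArg _ (Subtype.ext (map_one g.1))
      map_mul' := fun x y => by
        rw [← map_mul]
        exact congrArg _ (Subtype.ext (map_mul g.1 _ _)) }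
  have hu : ∀ g : U, A.valuation (g.1 z / z) = 1 := fun g => by
    refine (pow_eq_one_iff_of_nonneg zero_le (show ℓ ≠ 0 by omega)).1 ?_
    rw [← map_pow, div_pow, ← map_pow, hz, hπ.fix _ g.2, div_self hπ.ne, map_one]
  let c : U → IsLocalRing.ResidueField A := fun g =>
    IsLocalRing.residue A ⟨g.1 z / z, (A.valuation_le_one_iff _).1 (hu g).le⟩
  have hφ : ∀ q : U ⧸ V.subgroupOf U, φ q.out = φ 1 ↔ q = (1 : U) := fun q => by
    constructor
    · intro h
      obtain ⟨w, hw, u, hu, hI⟩ := sep (g := q.out.1) V hV hA fun x hx hi =>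
        res_eq_iff.1 (DFunLike.congr_fun h ⟨x, hx, hi⟩)
      have h1 := hfix _ (U.mul_mem (U.inv_mem hw.1) (U.mul_mem q.out.2 hu.1)) hI
      rw [AlgEquiv.mul_apply, AlgEquiv.mul_apply, show u z = z from hu.2] at h1
      have h2 : q.out.1 z = z := by
        have := congrArg w h1
        rwa [show w z = z from hw.2, ← AlgEquiv.mul_apply, mul_inv_cancel] at this
      rw [← q.out_eq', eq_comm, QuotientGroup.eq, inv_one, one_mul, Subgroup.mem_subgroupOf]
      exact ⟨q.out.2, h2⟩
    · intro h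
      ext x
      exact congrArg (IsLocalRing.residue A) (Subtype.ext (hcos x.2.1 _ _ (q.out_eq'.trans h)))
  obtain ⟨x, hx⟩ : ∃ x : O, ∑ q : U ⧸ V.subgroupOf U, c q.out * φ q.out x ≠ 0 := by
    by_contra! h0
    have h1 := linearIndependent_iff.1 (linearIndependent_monoidHom O (IsLocalRing.ResidueField A))
      (∑ q : U ⧸ V.subgroupOf U, Finsupp.single (φ q.out) (c q.out)) (by
        ext x
        simpa [map_sum] using h0 x)
    have h2 := DFunLike.congr_fun h1 (φ 1)
    simp only [Finsupp.finsetSum_apply, Finsupp.single_apply, hφ, Finset.sum_ite_eq',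
      Finset.mem_univ, if_true, Finsupp.zero_apply] at h2
    rw [IsLocalRing.residue_eq_zero_iff, A.valuation_lt_one_iff] at h2
    exact (hu _).not_lt h2
  set y : E := ∑ q : U ⧸ V.subgroupOf U, q.out.1 (x * z) with hy
  have hxz : Fix V (x * z) := fun w hw => by rw [map_mul, x.2.1 w hw, show w z = z from hw.2]
  have hyU : Fix U y := fun u hu => by
    rw [hy, map_sum, ← Equiv.sum_comp (MulAction.toPerm (⟨u, hu⟩ : U))
      fun q : U ⧸ V.subgroupOf U => q.out.1 (x * z)]
    refine Finset.sum_congr rfl fun q _ => hcos hxz ((⟨u, hu⟩ : U) * q.out) _ ?_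
    rw [QuotientGroup.out_eq']
    exact MulAction.Quotient.mk_smul_out _ (⟨u, hu⟩ : U) q
  have hyz : A.valuation (y / z) = 1 := by
    simp only [c, φ, MonoidHom.coe_mk, OneHom.coe_mk, ← map_mul, ← map_sum] at hx
    rw [Ne, IsLocalRing.residue_eq_zero_iff, A.valuation_lt_one_iff, not_lt] at hx
    have h1 := le_antisymm (A.valuation_le_one _) hx
    rw [← h1, hy, Finset.sum_div]
    congr 1
    push_cast
    exact Finset.sum_congr rfl fun q _ => by rw [map_mul]; ring
  have hvz : A.valuation z ≠ 0 := (Valuation.ne_zero_iff _).2 hz0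
  rw [map_div₀, div_eq_one_iff_eq hvz] at hyz
  obtain ⟨m, hm⟩ := hπ.val y (fun h => hvz (by rw [← hyz, h, map_zero])) hyU
  have h1 : A.valuation π ^ (1 : ℤ) = A.valuation π ^ (m * ℓ) := by
    rw [zpow_one, zpow_mul, ← hm, hyz, zpow_natCast, ← map_pow, hz]
  have h2 := (zpow_right_inj₀ hπ.pos hπ.lt.ne).1 h1
  have h3 : (ℓ : ℤ) ∣ 1 := Dvd.intro_left m h2.symm
  have := Int.le_of_dvd one_pos h3
  omega

end Crest.Agent.R18.LOC
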