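import Crest.Agent.R18.Dec

/-! Row 18 block LOC: uniformisers, tame characters, wild inertia. -/

set_option autoImplicit false
set_option linter.unusedSectionVars false
open scoped Pointwise NumberField
open IsDedekindDomain Crest.NumberTheoryR

namespace Crest.Agent.R18.LOC

variable {F E : Type*} [Field F] [NumberField F] [Field E] [Algebra F E] [IsGalois F E]

variable {A : ValuationSubring E} {g h : E ≃ₐ[F] E} {p : ℕ}

/-- `π` is a uniformiser of the fixed field of `W` at `A` -/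
structure Unif (W : Subgroup (E ≃ₐ[F] E)) (A : ValuationSubring E) (π : E) : Prop where
  ne : π ≠ 0
  fix : Fix W π
  lt : A.valuation π < 1
  val : ∀ x, x ≠ 0 → Fix W x → ∃ m : ℤ, A.valuation x = A.valuation π ^ m

theorem exists_unif (W : Subgroup (E ≃ₐ[F] E)) (hW : IsOpen (W : Set (E ≃ₐ[F] E)))
    (hA : Over A p) : ∃ π, Unif W A π := by
  have := numberField_fixedField W hW
  obtain ⟨𝔭, -, h⟩ := exists_prime_below (IntermediateField.fixedField W).val.toRingHom A hA
  obtain ⟨π, h0, h1⟩ := exists_ord_eq 𝔭 1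
  refine ⟨π, by simpa using h0, (fix_iff_mem W _).2 π.2, ?_, fun x hx hf => ?_⟩
  · by_contra hlt
    have h2 := (h 1 π).1 (by simpa using not_lt.1 hlt)
    rw [← ord_le_iff 𝔭 h0 one_ne_zero, h1, (ord_eq_zero_iff 𝔭 one_ne_zero).2 (map_one _)] at h2
    omega
  · set x' : IntermediateField.fixedField W := ⟨x, (fix_iff_mem W _).1 hf⟩
    have hx' : x' ≠ 0 := fun h => hx (congrArg Subtype.val h)
    have h2 : ord 𝔭 x' = ord 𝔭 (π ^ ord 𝔭 x') := by rw [ord_zpow, h1, mul_one]
    have h3 := zpow_ne_zero (ord 𝔭 x') h0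
    refine ⟨ord 𝔭 x', ?_⟩
    rw [← map_zpow₀]
    exact le_antisymm
      (by simpa using (h x' (π ^ ord 𝔭 x')).2 ((ord_le_iff 𝔭 h3 hx').1 h2.ge))
      (by simpa using (h (π ^ ord 𝔭 x') x').2 ((ord_le_iff 𝔭 hx' h3).1 h2.le))

theorem Unif.pos {W : Subgroup (E ≃ₐ[F] E)} {π : E} (hπ : Unif W A π) : 0 < A.valuation π :=
  zero_lt_iff.2 ((Valuation.ne_zero_iff _).2 hπ.ne)

theorem Unif.le {W : Subgroup (E ≃ₐ[F] E)} {π : E} (hπ : Unif W A π) {x : E} (hx : Fix W x)
    (h : A.valuation x < 1) : A.valuation x ≤ A.valuation π := by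
  rcases eq_or_ne x 0 with rfl | h0
  · simp
  obtain ⟨m, hm⟩ := hπ.val x h0 hx
  rw [hm] at h ⊢
  have := (zpow_lt_one_iff_right_of_lt_one₀ hπ.pos hπ.lt).1 h
  simpa using zpow_le_zpow_right_of_le_one₀ hπ.pos hπ.lt.le (show 1 ≤ m by omega)

theorem exists_frac (W : Subgroup (E ≃ₐ[F] E)) (hW : IsOpen (W : Set (E ≃ₐ[F] E)))
    (hA : Over A p) {x : E} (hx : x ∈ A) (hf : Fix W x) :
    ∃ a s : E, IsIntegral ℤ a ∧ IsIntegral ℤ s ∧ Fix W a ∧ Fix W s ∧ A.valuation s = 1 ∧
      x * s = a := by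
  have := numberField_fixedField W hW
  obtain ⟨𝔭, -, h⟩ := exists_prime_below (IntermediateField.fixedField W).val.toRingHom A hA
  set x' : IntermediateField.fixedField W := ⟨x, (fix_iff_mem W _).1 hf⟩
  obtain ⟨n, d, hnd⟩ := 𝔭.exists_primeCompl_mul_eq_of_integer x'
    (by simpa using (h x' 1).1 (by simpa using (A.valuation_le_one_iff x).2 hx))
  have hi : ∀ a : 𝓞 (IntermediateField.fixedField W),
      IsIntegral ℤ ((a : IntermediateField.fixedField W) : E) := fun a =>
    a.isIntegral_coe.map (IntermediateField.fixedField W).val.toRingHom.toIntAlgHom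
  have hd := (𝔭.valuation_eq_one_iff_notMem (K := IntermediateField.fixedField W)).2 d.2
  refine ⟨_, _, hi n, hi d, (fix_iff_mem W _).2 (Subtype.property _),
    (fix_iff_mem W _).2 (Subtype.property _), ?_, congrArg Subtype.val hnd⟩
  exact le_antisymm (by simpa using (h _ 1).2 (by simpa using hd.le))
    (by simpa using (h 1 _).2 (by simpa using hd.ge))

theorem fix_apply {W : Subgroup (E ≃ₐ[F] E)} (hW : W.Normal) {x : E} (hx : Fix W x)
    (g : E ≃ₐ[F] E) : Fix W (g x) := fun w hw => by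
  have := hx _ (hW.conj_mem' w hw g)
  rw [AlgEquiv.mul_apply, AlgEquiv.mul_apply] at this
  simpa using congrArg g this

/-- the inertia group -/
def IG (F : Type*) [Field F] [NumberField F] [Algebra F E] [IsGalois F E]
    (A : ValuationSubring E) : Subgroup (E ≃ₐ[F] E) where
  carrier := {g | Inert A g}
  one_mem' := Inert.one A
  mul_mem' := Inert.mul
  inv_mem' := Inert.inv

theorem val_div (hg : Stab A g) {x : E} (hx : x ≠ 0) : A.valuation (g x / x) = 1 := by
  rw [map_div₀, hg.val_eq, div_self ((Valuation.ne_zero_iff _).2 hx)]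

theorem div_mem (hg : Stab A g) {x : E} (hx : x ≠ 0) : g x / x ∈ A :=
  (A.valuation_le_one_iff _).1 (val_div hg hx).le

theorem res_eq_iff {a b : A} : IsLocalRing.residue A a = IsLocalRing.residue A b ↔
    A.valuation ((a : E) - b) < 1 := by
  rw [← sub_eq_zero, ← map_sub, IsLocalRing.residue_eq_zero_iff, A.valuation_lt_one_iff]
  rfl

theorem res_inert (hg : Inert A g) (a : A) :
    IsLocalRing.residue A ⟨g a, (hg.1 a).2 a.2⟩ = IsLocalRing.residue A a :=
  res_eq_iff.2 (hg.2 a a.2)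

/-- the tame character attached to `x` -/
noncomputable def tc (F : Type*) [Field F] [NumberField F] [Algebra F E] [IsGalois F E]
    (A : ValuationSubring E) {x : E} (hx : x ≠ 0) : IG F A →* IsLocalRing.ResidueField A where
  toFun g := IsLocalRing.residue A ⟨g.1 x / x, div_mem g.2.1 hx⟩
  map_one' := by
    rw [← map_one (IsLocalRing.residue A)]
    congr 1
    exact Subtype.ext (div_self hx)
  map_mul' g h := by
    rw [← res_inert g.2 ⟨h.1 x / x, div_mem h.2.1 hx⟩, ← map_mul]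
    congr 1
    refine Subtype.ext ?_
    have : g.1 x ≠ 0 := by simpa using hx
    change g.1 (h.1 x) / x = g.1 x / x * g.1 (h.1 x / x)
    rw [map_div₀]
    field_simp

theorem tc_congr {x y : E} (hx : x ≠ 0) (hy : y ≠ 0) (h : A.valuation x = A.valuation y) :
    tc F A hx = tc F A hy := by
  ext g
  have hu : A.valuation (x / y) = 1 := by
    rw [map_div₀, h, div_self ((Valuation.ne_zero_iff _).2 hy)]
  set u : A := ⟨x / y, (A.valuation_le_one_iff _).1 hu.le⟩
  have h0 : IsLocalRing.residue A u ≠ 0 := by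
    rw [Ne, IsLocalRing.residue_eq_zero_iff, A.valuation_lt_one_iff]
    exact hu.not_lt
  refine mul_right_cancel₀ h0 ?_
  change IsLocalRing.residue A _ * _ = IsLocalRing.residue A _ * _
  conv_rhs => rw [← res_inert g.2 u]
  rw [← map_mul, ← map_mul]
  congr 1
  refine Subtype.ext ?_
  have : g.1 y ≠ 0 := by simpa using hy
  change g.1 x / x * (x / y) = g.1 y / y * g.1 (x / y)
  rw [map_div₀]
  field_simp

theorem tc_frob {x : E} (hx : x ≠ 0) {σ : E ≃ₐ[F] E} {N : ℕ} (hσ : Frob A σ N) (g : IG F A) :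
    tc F A hx ⟨σ * g * σ⁻¹, g.2.conj_stab hσ.1⟩ = tc F A hx g ^ N := by
  have hy : σ⁻¹ x ≠ 0 := by simpa using hx
  rw [tc_congr hx hy (hσ.1.inv.val_eq x).symm]
  conv_lhs => rw [← tc_congr hx hy (hσ.1.inv.val_eq x).symm]
  change IsLocalRing.residue A _ = IsLocalRing.residue A _ ^ N
  rw [← map_pow, res_eq_iff]
  have := hσ.2 _ (div_mem g.2.1 hy)
  rw [map_div₀] at this
  simpa using this

/-- wild inertia -/
def Wild (A : ValuationSubring E) (g : E ≃ₐ[F] E) : Prop :=
  Stab A g ∧ ∀ x, x ≠ 0 → A.valuation (g x / x - 1) < 1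

theorem wild_of_tc (g : IG F A) (h : ∀ (x : E) (hx : x ≠ 0), tc F A hx g = 1) : Wild A g.1 :=
  ⟨g.2.1, fun x hx => by
    have := h x hx
    rw [← map_one (IsLocalRing.residue A)] at this
    exact res_eq_iff.1 this⟩

/-- `b = h (σ τ σ⁻¹) h⁻¹ τ⁻ᴺ` is wild -/
theorem wild_conj {σ τ : E ≃ₐ[F] E} {N : ℕ} (hσ : Frob A σ N) (hτ : Inert A τ) (hh : Inert A h) :
    Wild A (h * (σ * τ * σ⁻¹) * h⁻¹ * (τ ^ N)⁻¹) := by
  refine wild_of_tc ((⟨h, hh⟩ : IG F A) * ⟨σ * τ * σ⁻¹, hτ.conj_stab hσ.1⟩ * (⟨h, hh⟩ : IG F A)⁻¹ *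
    ((⟨τ, hτ⟩ : IG F A) ^ N)⁻¹) fun x hx => ?_
  have h0 : ∀ g : IG F A, tc F A hx g ≠ 0 := fun g => ((Group.isUnit g).map _).ne_zero
  have h1 := h0 ⟨h, hh⟩
  have h2 := h0 ⟨τ, hτ⟩
  rw [map_mul, map_mul, map_mul, map_inv, map_inv, map_pow, tc_frob hx hσ ⟨τ, hτ⟩]
  field_simp

theorem Wild.exists_pow (hg : Wild A g) (hA : Over A p) (W : Subgroup (E ≃ₐ[F] E)) (hn : W.Normal)
    (hW : IsOpen (W : Set (E ≃ₐ[F] E))) : ∃ n : ℕ, g ^ p ^ n ∈ W := by
  obtain ⟨π, hπ⟩ := exists_unif W hW hA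
  let R : (E ≃ₐ[F] E) → ℕ → Prop := fun g i =>
    ∀ x, Fix W x → A.valuation (g x - x) ≤ A.valuation π ^ i * A.valuation x
  have hsub : ∀ {x y : E}, Fix W x → Fix W y → Fix W (x - y) := fun hx hy w hw => by
    rw [map_sub, hx w hw, hy w hw]
  have h1 : R g 1 := fun x hx => by
    rcases eq_or_ne x 0 with rfl | h0
    · simp
    have h2 := hπ.le (x := g x / x - 1) (fun w hw => by
      rw [map_sub, map_div₀, fix_apply hn hx g w hw, hx w hw, map_one]) (hg.2 x h0)
    rw [show g x - x = (g x / x - 1) * x by field_simp, map_mul, pow_one]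
    gcongr
  have h2 : ∀ j : ℕ, R (g ^ j) 1 := fun j x hx => by
    induction j with
    | zero => simp
    | succ j ih =>
      rw [pow_succ', AlgEquiv.mul_apply, ← sub_add_sub_cancel _ ((g ^ j) x)]
      refine Valuation.map_add_le _ ?_ ih
      have h3 := h1 _ (fix_apply hn hx (g ^ j))
      rwa [(hg.1.pow j).val_eq] at h3
  have h3 : ∀ n : ℕ, R (g ^ p ^ n) n := fun n => by
    induction n with
    | zero =>
      intro x _
      simpa using Valuation.map_sub_le _ (hg.1.val_eq x).le le_rfl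
    | succ n ih =>
      intro x hx
      set k := g ^ p ^ n with hk
      have hy := hsub (fix_apply hn hx k) hx
      have h4 : ∀ j : ℕ, A.valuation ((k ^ j) x - x - j * (k x - x)) ≤
          A.valuation π * A.valuation (k x - x) := fun j => by
        induction j with
        | zero => simp
        | succ j ih' =>
          have h5 : (k ^ (j + 1)) x - x - (j + 1 : ℕ) * (k x - x) =
              ((k ^ j) (k x - x) - (k x - x)) + ((k ^ j) x - x - j * (k x - x)) := by
            rw [pow_succ, AlgEquiv.mul_apply, map_sub]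
            push_cast
            ring
          rw [h5]
          refine Valuation.map_add_le _ ?_ ih'
          simpa [hk, ← pow_mul] using h2 (p ^ n * j) _ hy
      have h6 : A.valuation (p : E) ≤ A.valuation π := hπ.le (fun w _ => map_natCast w p) hA.2
      rw [pow_succ, pow_mul, ← hk, ← sub_add_cancel ((k ^ p) x - x) (p * (k x - x)), pow_succ',
        mul_assoc]
      refine (Valuation.map_add_le _ (h4 p) ?_).trans (mul_le_mul_right (ih x hx) _)
      rw [map_mul]
      gcongr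
  have := finiteIndex_of_open W hW
  obtain ⟨c, hc⟩ := Finite.exists_infinite_fiber fun n : ℕ => ((g ^ p ^ n : E ≃ₐ[F] E) : _ ⧸ W)
  have hc' := Set.infinite_coe_iff.1 hc
  obtain ⟨n₀, hn₀⟩ := hc'.nonempty
  refine ⟨n₀, mem_of_fix W (W.isClosed_of_isOpen hW) _ fun x hx => ?_⟩
  by_contra hne
  have hx0 : x ≠ 0 := by rintro rfl; simp at hne
  obtain ⟨a, ha⟩ := hπ.val _ (sub_ne_zero.2 hne) (hsub (fix_apply hn hx _) hx)
  obtain ⟨b, hb⟩ := hπ.val x hx0 hx
  obtain ⟨n, hn1, hn2⟩ := hc'.exists_gt (a - b).toNat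
  have h7 : (g ^ p ^ n) x = (g ^ p ^ n₀) x := by
    have h8 := hx _ (QuotientGroup.eq.1 (hn1.trans hn₀.symm))
    rw [AlgEquiv.mul_apply] at h8
    simpa using (congrArg (g ^ p ^ n) h8).symm
  have h9 := h3 n x hx
  rw [h7, ha, hb, ← zpow_natCast, ← zpow_add₀ hπ.pos.ne',
    zpow_le_zpow_iff_right_of_lt_one₀ hπ.pos hπ.lt] at h9
  omega

end Crest.Agent.R18.LOC
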